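import Vale.Agent.Lib.P217.Final

open Vale.Agent.Lib.P217

namespace Vale.Agent.Results.P217.InvPrimeU1

/-- Let `k` be the field with `p ^ n` elements, `n ≥ 2`, let `Γ` be a commutative formal group over `k` with `[p]_Γ = X ^ (p ^ n)`,
with coefficients fixed by Frobenius and commuting with multiplication by `k`, and let `F` be a commutative formal group over
`A = k⟦u_1, …, u_(n-1)⟧` lifting `Γ` for which the coefficients of `[p]_F` below `X ^ (p ^ n)` generate the maximal ideal.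
Let `𝔭` be a prime of `A` such that every automorphism `g` of `Γ` lifts to an isomorphism `K : F → τ^* F` for a `k`-automorphism `τ` of `A` with `τ 𝔭 = 𝔭`.
Then `𝔭` contains the coefficient of `X ^ p` of `[p]_F`, or `𝔭 = 0`. -/
theorem result {p n : ℕ} [Fact p.Prime] (hn : 2 ≤ n) {k : Type} [Field k] [Fintype k] [CharP k p]
    (hk : Fintype.card k = p ^ n)
    (Γ : FormalGroup k) [Γ.IsComm] (hΓp : mulSeries Γ p = PowerSeries.X ^ (p ^ n))
    (hΓF : ∀ d, (MvPowerSeries.coeff d Γ.toPowerSeries) ^ p = MvPowerSeries.coeff d Γ.toPowerSeries)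
    (hΓω : ∀ c : k, c ≠ 0 → IsHom Γ Γ (PowerSeries.C c * PowerSeries.X))
    (F : FormalGroup (MvPowerSeries (Fin (n - 1)) k)) [F.IsComm]
    (hF : F.map MvPowerSeries.constantCoeff = Γ)
    (hI : IsLocalRing.maximalIdeal (MvPowerSeries (Fin (n - 1)) k) =
      Ideal.span {a | ∃ j, j < p ^ n ∧ a = PowerSeries.coeff j (mulSeries F p)})
    (𝔭 : Ideal (MvPowerSeries (Fin (n - 1)) k)) [𝔭.IsPrime]
    (hinv : ∀ g : PowerSeries k, IsHom Γ Γ g → IsUnit (PowerSeries.coeff 1 g) →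
      ∃ (τ : MvPowerSeries (Fin (n - 1)) k ≃ₐ[k] MvPowerSeries (Fin (n - 1)) k)
        (K : PowerSeries (MvPowerSeries (Fin (n - 1)) k)),
        IsHom F (F.map (τ : MvPowerSeries (Fin (n - 1)) k →+* MvPowerSeries (Fin (n - 1)) k)) K ∧
        PowerSeries.map MvPowerSeries.constantCoeff K = g ∧
        𝔭.map (τ : MvPowerSeries (Fin (n - 1)) k →+* MvPowerSeries (Fin (n - 1)) k) = 𝔭) :
    PowerSeries.coeff p (mulSeries F p) ∈ 𝔭 ∨ 𝔭 = ⊥ :=
  invariant_main hn hk Γ hΓp hΓF hΓω F hF hI 𝔭 hinv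

end Vale.Agent.Results.P217.InvPrimeU1
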