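import Vale.Agent.Lib.P217.HClass

open Vale.Agent.Lib.P217

namespace Vale.Agent.Results.P217.InvRadicalCharP

/-- Let `k` be the field with `p ^ n` elements, `n ≥ 1`, let `Γ` be a commutative formal group over `k` with `[p]_Γ = X ^ (p ^ n)`,
with coefficients fixed by Frobenius and commuting with multiplication by `k`, and let `F` be a commutative formal group over
`A = k⟦u_1, …, u_(n-1)⟧` lifting `Γ` such that for `1 ≤ h ≤ n` the coefficients of `[p]_F` below `X ^ (p ^ h)` generate the ideal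
`(u_1, …, u_(h-1))`. Let `J ≠ A` be a radical ideal of `A` such that every automorphism `g` of `Γ` lifts to an isomorphism
`K : F → τ^* F` for a `k`-automorphism `τ` of `A` with `τ J = J`. Then `J` is one of these height ideals. -/
theorem result {p n : ℕ} [Fact p.Prime] (hn : 1 ≤ n) {k : Type} [Field k] [Fintype k] [CharP k p]
    (hk : Fintype.card k = p ^ n)
    (Γ : FormalGroup k) [Γ.IsComm] (hΓp : mulSeries Γ p = PowerSeries.X ^ (p ^ n))
    (hΓF : ∀ d, (MvPowerSeries.coeff d Γ.toPowerSeries) ^ p = MvPowerSeries.coeff d Γ.toPowerSeries)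
    (hΓω : ∀ c : k, c ≠ 0 → IsHom Γ Γ (PowerSeries.C c * PowerSeries.X))
    (F : FormalGroup (MvPowerSeries (Fin (n - 1)) k)) [F.IsComm]
    (hF : F.map MvPowerSeries.constantCoeff = Γ)
    (hht : ∀ h, 1 ≤ h → h ≤ n → heightIdeal F p h =
      Ideal.span ((MvPowerSeries.X : Fin (n - 1) → MvPowerSeries (Fin (n - 1)) k) '' {l | l.val + 1 < h}))
    (J : Ideal (MvPowerSeries (Fin (n - 1)) k)) (hJ : J.IsRadical) (hJ1 : J ≠ ⊤)
    (hinv : ∀ g : PowerSeries k, IsHom Γ Γ g → IsUnit (PowerSeries.coeff 1 g) →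
      ∃ (τ : MvPowerSeries (Fin (n - 1)) k ≃ₐ[k] MvPowerSeries (Fin (n - 1)) k)
        (K : PowerSeries (MvPowerSeries (Fin (n - 1)) k)),
        IsHom F (F.map (τ : MvPowerSeries (Fin (n - 1)) k →+* MvPowerSeries (Fin (n - 1)) k)) K ∧
        PowerSeries.map MvPowerSeries.constantCoeff K = g ∧
        J.map (τ : MvPowerSeries (Fin (n - 1)) k →+* MvPowerSeries (Fin (n - 1)) k) = J) :
    ∃ h, 1 ≤ h ∧ h ≤ n ∧ J = heightIdeal F p h :=
  classify_radical hn hk Γ hΓp hΓF hΓω F hF hht J hJ hJ1 hinv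

end Vale.Agent.Results.P217.InvRadicalCharP
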