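import Vale.Agent.Lib.P217.ZExact

open Vale.Agent.Lib.P217

namespace Vale.Agent.Results.P217.Q1Exact

/-- Let `k` be the field with `p ^ n` elements, `n ≥ 1`, `W = W(k)`, `E₀ = W⟦u_1, …, u_(n-1)⟧`. Let `Γ` be a commutative formal
group over `k` with `[p]_Γ = X ^ (p ^ n)`, with coefficients fixed by Frobenius and commuting with multiplication by `k`, and `F` a
commutative formal group over `E₀` lifting `Γ` such that `I_h = (p, u_1, …, u_(h-1))` is generated by `p` and the coefficients of `[p]_F`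
below degree `p ^ h`, and every automorphism of `Γ` lifts to an isomorphism `F → τ^* F` for a `W`-algebra automorphism `τ`. Then a
radical ideal is invariant under all such `τ` if and only if it is `0`, `E₀` or some `I_h`; a prime ideal is invariant if and only
if it is `0` or some `I_h`; and every `I_h` is prime. -/
theorem result {p n : ℕ} [Fact p.Prime] (hn : 1 ≤ n) {k : Type} [Field k] [Fintype k] [CharP k p]
    (hk : Fintype.card k = p ^ n)
    (Γ : FormalGroup k) [Γ.IsComm] (hΓp : mulSeries Γ p = PowerSeries.X ^ (p ^ n))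
    (hΓF : ∀ d, (MvPowerSeries.coeff d Γ.toPowerSeries) ^ p = MvPowerSeries.coeff d Γ.toPowerSeries)
    (hΓω : ∀ c : k, c ≠ 0 → IsHom Γ Γ (PowerSeries.C c * PowerSeries.X))
    (F : FormalGroup (MvPowerSeries (Fin (n - 1)) (WittVector p k))) [F.IsComm]
    (hF : F.map ((WittVector.constantCoeff).comp MvPowerSeries.constantCoeff) = Γ)
    (hht : ∀ h, 1 ≤ h → h ≤ n → heightIdeal F p h ⊔ Ideal.span {(p : MvPowerSeries (Fin (n - 1)) (WittVector p k))} = zheight p n k h)
    (hL : ∀ g : PowerSeries k, IsHom Γ Γ g → IsUnit (PowerSeries.coeff 1 g) →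
      ∃ (τ : MvPowerSeries (Fin (n - 1)) (WittVector p k) ≃ₐ[WittVector p k] MvPowerSeries (Fin (n - 1)) (WittVector p k))
        (K : PowerSeries (MvPowerSeries (Fin (n - 1)) (WittVector p k))),
        IsHom F (F.map (τ : MvPowerSeries (Fin (n - 1)) (WittVector p k) →+* MvPowerSeries (Fin (n - 1)) (WittVector p k))) K ∧
        PowerSeries.map ((WittVector.constantCoeff).comp MvPowerSeries.constantCoeff) K = g) :
    (∀ J : Ideal (MvPowerSeries (Fin (n - 1)) (WittVector p k)), J.IsRadical →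
      (ZInvariant Γ F J ↔ J = ⊥ ∨ J = ⊤ ∨ ∃ h, 1 ≤ h ∧ h ≤ n ∧ J = zheight p n k h)) ∧
    (∀ J : Ideal (MvPowerSeries (Fin (n - 1)) (WittVector p k)), J.IsPrime →
      (ZInvariant Γ F J ↔ J = ⊥ ∨ ∃ h, 1 ≤ h ∧ h ≤ n ∧ J = zheight p n k h)) ∧
    (∀ h, 1 ≤ h → h ≤ n → (zheight p n k h).IsPrime) :=
  classify_exact hn hk Γ hΓp hΓF hΓω F hF hht hL

end Vale.Agent.Results.P217.Q1Exact
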