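import Vale.Agent.Lib.P217.ZRad

open Vale.Agent.Lib.P217

namespace Vale.Agent.Results.P217.Q1Full

/-- Let `k` be the field with `p ^ n` elements, `n ≥ 1`, and `W = W(k)` its Witt vectors, `E₀ = W⟦u_1, …, u_(n-1)⟧`.
Let `Γ` be a commutative formal group over `k` with `[p]_Γ = X ^ (p ^ n)`, with coefficients fixed by Frobenius and commuting
with multiplication by `k`, and let `F` be a commutative formal group over `E₀` lifting `Γ` such that for `1 ≤ h ≤ n`, the coefficients of `[p]_F` below `X ^ (p ^ h)`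
generate, together with `p`, the ideal `I_h = (p, u_1, …, u_(h-1))`. Let `J ≠ E₀` be a radical ideal of `E₀` such that every automorphism `g` of `Γ` lifts to an isomorphism
`K : F → τ^* F` for a `W`-algebra automorphism `τ` of `E₀` with `τ J = J`. Then `J = 0` or `J = I_h` for some `1 ≤ h ≤ n`. -/
theorem result {p n : ℕ} [Fact p.Prime] (hn : 1 ≤ n) {k : Type} [Field k] [Fintype k] [CharP k p]
    (hk : Fintype.card k = p ^ n)
    (Γ : FormalGroup k) [Γ.IsComm] (hΓp : mulSeries Γ p = PowerSeries.X ^ (p ^ n))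
    (hΓF : ∀ d, (MvPowerSeries.coeff d Γ.toPowerSeries) ^ p = MvPowerSeries.coeff d Γ.toPowerSeries)
    (hΓω : ∀ c : k, c ≠ 0 → IsHom Γ Γ (PowerSeries.C c * PowerSeries.X))
    (F : FormalGroup (MvPowerSeries (Fin (n - 1)) (WittVector p k))) [F.IsComm]
    (hF : F.map ((WittVector.constantCoeff).comp MvPowerSeries.constantCoeff) = Γ)
    (hht : ∀ h, 1 ≤ h → h ≤ n → heightIdeal F p h ⊔ Ideal.span {(p : MvPowerSeries (Fin (n - 1)) (WittVector p k))} = zheight p n k h)
    (J : Ideal (MvPowerSeries (Fin (n - 1)) (WittVector p k))) (hJ : J.IsRadical) (hJ1 : J ≠ ⊤)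
    (hinv : ∀ g : PowerSeries k, IsHom Γ Γ g → IsUnit (PowerSeries.coeff 1 g) →
      ∃ (τ : MvPowerSeries (Fin (n - 1)) (WittVector p k) ≃ₐ[WittVector p k] MvPowerSeries (Fin (n - 1)) (WittVector p k))
        (K : PowerSeries (MvPowerSeries (Fin (n - 1)) (WittVector p k))),
        IsHom F (F.map (τ : MvPowerSeries (Fin (n - 1)) (WittVector p k) →+* MvPowerSeries (Fin (n - 1)) (WittVector p k))) K ∧
        PowerSeries.map ((WittVector.constantCoeff).comp MvPowerSeries.constantCoeff) K = g ∧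
        J.map (τ : MvPowerSeries (Fin (n - 1)) (WittVector p k) →+* MvPowerSeries (Fin (n - 1)) (WittVector p k)) = J) :
    J = ⊥ ∨ ∃ h, 1 ≤ h ∧ h ≤ n ∧ J = zheight p n k h :=
  classify_full hn hk Γ hΓp hΓF hΓω F hF hht J hJ hJ1 hinv

end Vale.Agent.Results.P217.Q1Full
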